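import Mathlib

/-!
# P267 / CURV-C3 (helper498), part 1

One dimensional Poincare-Lelong formula: `∫ log ‖z - p‖ * Δ χ = 2 π χ p` for `χ` of class `C^2`
with compact support.  Mathlib only.
-/

open MeasureTheory InnerProductSpace Laplacian Topology Filter Set Metric
open scoped Real ContDiff

namespace Vale.Agent.P267.H498

noncomputable section

/-- Second derivative in the direction `v`. -/
def D2 (f : ℂ → ℝ) (v : ℂ) (z : ℂ) : ℝ := fderiv ℝ (fun w => fderiv ℝ f w v) z v

lemma D2_eq {f : ℂ → ℝ} {z : ℂ} (hf : ContDiffAt ℝ 2 f z) (v : ℂ) :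
    D2 f v z = fderiv ℝ (fderiv ℝ f) z v v := by
  have h1 : ContDiffAt ℝ 1 (fderiv ℝ f) z := hf.fderiv_right (by norm_num)
  have h2 : DifferentiableAt ℝ (fderiv ℝ f) z := h1.differentiableAt (by norm_num)
  have := (h2.hasFDerivAt.clm_apply (hasFDerivAt_const v z)).fderiv
  unfold D2
  rw [this]
  simp

lemma laplacian_eq {f : ℂ → ℝ} {z : ℂ} (hf : ContDiffAt ℝ 2 f z) :
    Δ f z = D2 f 1 z + D2 f Complex.I z := by
  rw [D2_eq hf, D2_eq hf, laplacian_eq_iteratedFDeriv_complexPlane]
  simp [iteratedFDeriv_two_apply]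

lemma integrable_of_support {h : ℂ → ℝ} {K : Set ℂ} (hK : IsCompact K) (hc : ContinuousOn h K)
    (h0 : ∀ z, z ∉ K → h z = 0) : Integrable h := by
  rw [← integrableOn_iff_integrable_of_support_subset (s := K)]
  · exact hc.integrableOn_compact hK
  · intro z hz
    by_contra hzK
    exact hz (h0 z hzK)

lemma fderiv_zero_of_notMem_tsupport {χ : ℂ → ℝ} {z : ℂ} (hz : z ∉ tsupport χ) :
    fderiv ℝ χ z = 0 := by
  have := support_fderiv_subset ℝ (f := χ)
  by_contra h
  exact hz (this h)

lemma green_dir {U : Set ℂ} (hU : IsOpen U) {u χ : ℂ → ℝ} (hu : ContDiffOn ℝ 2 u U)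
    (hχ : ContDiff ℝ 2 χ) (hc : HasCompactSupport χ) (hs : tsupport χ ⊆ U) (v : ℂ) :
    ∫ z, u z * D2 χ v z = ∫ z, D2 u v z * χ z := by
  have hK : IsCompact (tsupport χ) := hc
  have huA : ∀ z ∈ U, ContDiffAt ℝ 2 u z := fun z hz => hu.contDiffAt (hU.mem_nhds hz)
  -- regularity
  have hχ1 : ContDiff ℝ 1 (fun w => fderiv ℝ χ w v) :=
    (hχ.fderiv_right (m := 1) (by norm_num)).clm_apply contDiff_const
  have hu1 : ∀ z ∈ U, ContDiffAt ℝ 1 (fun w => fderiv ℝ u w v) z := fun z hz =>
    ((huA z hz).fderiv_right (m := 1) (by norm_num)).clm_apply contDiffAt_const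
  have hχ0 : ∀ z, z ∉ tsupport χ → fderiv ℝ χ z v = 0 := fun z hz => by
    rw [fderiv_zero_of_notMem_tsupport hz]; rfl
  have hts : tsupport (fun w => fderiv ℝ χ w v) ⊆ tsupport χ := by
    apply closure_minimal _ (isClosed_tsupport χ)
    intro z hz
    by_contra h
    exact hz (hχ0 z h)
  have hD2χ : ∀ z, z ∉ tsupport χ → D2 χ v z = 0 := fun z hz => by
    have : z ∉ tsupport (fun w => fderiv ℝ χ w v) := fun h => hz (hts h)
    unfold D2
    rw [fderiv_zero_of_notMem_tsupport this]; rfl
  have cu : ContinuousOn u (tsupport χ) := fun z hz => (huA z (hs hz)).continuousAt.continuousWithinAt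
  have cu1 : ContinuousOn (fun w => fderiv ℝ u w v) (tsupport χ) :=
    fun z hz => (hu1 z (hs hz)).continuousAt.continuousWithinAt
  have cu2 : ContinuousOn (fun w => D2 u v w) (tsupport χ) := fun z hz => by
    have := ((hu1 z (hs hz)).fderiv_right (m := 0) (by norm_num)).continuousAt
    exact (this.clm_apply continuousAt_const).continuousWithinAt
  have cχ : Continuous χ := hχ.continuous
  have cχ1 : Continuous (fun w => fderiv ℝ χ w v) := hχ1.continuous
  have cχ2 : Continuous (fun w => D2 χ v w) := by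
    have := (hχ1.fderiv_right (m := 0) (by norm_num)).continuous
    exact this.clm_apply continuous_const
  have hχn : ∀ z, z ∉ tsupport χ → χ z = 0 := fun z hz => image_eq_zero_of_notMem_tsupport hz
  have e1 : ∫ z, u z * fderiv ℝ (fun w => fderiv ℝ χ w v) z v
      = - ∫ z, fderiv ℝ u z v * fderiv ℝ χ z v := by
    apply integral_mul_fderiv_eq_neg_fderiv_mul_of_integrable
    · exact integrable_of_support hK (cu1.mul cχ1.continuousOn) fun z hz => by simp [hχ0 z hz]
    · exact integrable_of_support hK (cu.mul cχ2.continuousOn) fun z hz => by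
        have := hD2χ z hz
        unfold D2 at this
        simp [this]
    · exact integrable_of_support hK (cu.mul cχ1.continuousOn) fun z hz => by simp [hχ0 z hz]
    · intro z hz
      exact (huA z (hs (hts hz))).differentiableAt (by norm_num)
    · intro z _
      exact hχ1.differentiable (by norm_num) z
  have e2 : ∫ z, fderiv ℝ u z v * fderiv ℝ χ z v
      = - ∫ z, fderiv ℝ (fun w => fderiv ℝ u w v) z v * χ z := by
    apply integral_mul_fderiv_eq_neg_fderiv_mul_of_integrable
      (f := fun w => fderiv ℝ u w v) (g := χ) (v := v)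
    · exact integrable_of_support hK (cu2.mul cχ.continuousOn) fun z hz => by simp [hχn z hz]
    · exact integrable_of_support hK (cu1.mul cχ1.continuousOn) fun z hz => by simp [hχ0 z hz]
    · exact integrable_of_support hK (cu1.mul cχ.continuousOn) fun z hz => by simp [hχn z hz]
    · intro z hz
      exact (hu1 z (hs hz)).differentiableAt (by norm_num)
    · intro z _
      exact hχ.differentiable (by norm_num) z
  show ∫ z, u z * fderiv ℝ (fun w => fderiv ℝ χ w v) z v = ∫ z, fderiv ℝ (fun w => fderiv ℝ u w v) z v * χ z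
  rw [e1, e2, neg_neg]

lemma continuous_D2 {χ : ℂ → ℝ} (hχ : ContDiff ℝ 2 χ) (v : ℂ) : Continuous (D2 χ v) := by
  have hχ1 : ContDiff ℝ 1 (fun w => fderiv ℝ χ w v) :=
    (hχ.fderiv_right (m := 1) (by norm_num)).clm_apply contDiff_const
  have := (hχ1.fderiv_right (m := 0) (by norm_num)).continuous
  exact this.clm_apply continuous_const

lemma continuous_laplacian {χ : ℂ → ℝ} (hχ : ContDiff ℝ 2 χ) : Continuous (Δ χ) := by
  have : Δ χ = fun z => D2 χ 1 z + D2 χ Complex.I z := by
    ext z; exact laplacian_eq hχ.contDiffAt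
  rw [this]
  exact (continuous_D2 hχ 1).add (continuous_D2 hχ _)

lemma laplacian_eq_zero_of_notMem {χ : ℂ → ℝ} {z : ℂ} (hz : z ∉ tsupport χ) : Δ χ z = 0 := by
  have h1 : χ =ᶠ[𝓝 z] (fun _ => (0 : ℝ)) := notMem_tsupport_iff_eventuallyEq.1 hz
  have := (laplacian_congr_nhds h1).eq_of_nhds
  rw [this]; simp

lemma hasCompactSupport_laplacian {χ : ℂ → ℝ} (hc : HasCompactSupport χ) :
    HasCompactSupport (Δ χ) := by
  apply HasCompactSupport.of_support_subset_isCompact hc
  intro z hz
  by_contra h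
  exact hz (laplacian_eq_zero_of_notMem h)

lemma tsupport_laplacian_subset {χ : ℂ → ℝ} : tsupport (Δ χ) ⊆ tsupport χ := by
  apply closure_minimal _ (isClosed_tsupport χ)
  intro z hz
  by_contra h
  exact hz (laplacian_eq_zero_of_notMem h)

/-- Green's formula. -/
theorem green {U : Set ℂ} (hU : IsOpen U) {u χ : ℂ → ℝ} (hu : ContDiffOn ℝ 2 u U)
    (hχ : ContDiff ℝ 2 χ) (hc : HasCompactSupport χ) (hs : tsupport χ ⊆ U) :
    ∫ z, u z * Δ χ z = ∫ z, χ z * Δ u z := by
  have hK : IsCompact (tsupport χ) := hc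
  have huA : ∀ z ∈ U, ContDiffAt ℝ 2 u z := fun z hz => hu.contDiffAt (hU.mem_nhds hz)
  have hu1 : ∀ (v : ℂ), ∀ z ∈ U, ContDiffAt ℝ 1 (fun w => fderiv ℝ u w v) z := fun v z hz =>
    ((huA z hz).fderiv_right (m := 1) (by norm_num)).clm_apply contDiffAt_const
  have cu : ContinuousOn u (tsupport χ) := fun z hz => (huA z (hs hz)).continuousAt.continuousWithinAt
  have cu2 : ∀ v : ℂ, ContinuousOn (fun w => D2 u v w) (tsupport χ) := fun v z hz => by
    have := ((hu1 v z (hs hz)).fderiv_right (m := 0) (by norm_num)).continuousAt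
    exact (this.clm_apply continuousAt_const).continuousWithinAt
  have hχn : ∀ z, z ∉ tsupport χ → χ z = 0 := fun z hz => image_eq_zero_of_notMem_tsupport hz
  have hD2χ : ∀ v : ℂ, ∀ z, z ∉ tsupport χ → D2 χ v z = 0 := fun v z hz => by
    have h1 : χ =ᶠ[𝓝 z] (fun _ => (0 : ℝ)) := notMem_tsupport_iff_eventuallyEq.1 hz
    have h2 : (fun w => fderiv ℝ χ w v) =ᶠ[𝓝 z] fun _ => (0 : ℝ) := by
      filter_upwards [h1.eventuallyEq_nhds] with w hw
      rw [hw.fderiv_eq]; simp
    unfold D2
    rw [h2.fderiv_eq]; simp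
  have i1 : ∀ v, Integrable (fun z => u z * D2 χ v z) := fun v =>
    integrable_of_support hK (cu.mul (continuous_D2 hχ v).continuousOn) fun z hz => by
      simp [hD2χ v z hz]
  have i2 : ∀ v, Integrable (fun z => D2 u v z * χ z) := fun v =>
    integrable_of_support hK ((cu2 v).mul hχ.continuous.continuousOn) fun z hz => by
      simp [hχn z hz]
  have e1 : ∀ z, u z * Δ χ z = u z * D2 χ 1 z + u z * D2 χ Complex.I z := fun z => by
    rw [laplacian_eq hχ.contDiffAt]; ring
  have e2 : ∀ z, χ z * Δ u z = D2 u 1 z * χ z + D2 u Complex.I z * χ z := fun z => by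
    by_cases hz : z ∈ tsupport χ
    · rw [laplacian_eq (huA z (hs hz))]; ring
    · simp [hχn z hz]
  simp_rw [e1, e2]
  rw [integral_add (i1 1) (i1 _), integral_add (i2 1) (i2 _), green_dir hU hu hχ hc hs,
    green_dir hU hu hχ hc hs]

end

end Vale.Agent.P267.H498
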