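import Mathlib
import Vale.Agent.P267.H498.Deg1

/-!
# P267 / CURV-C3 (helper498), part 2: mollified logarithm and the logarithmic potential.
-/

open MeasureTheory InnerProductSpace Laplacian Topology Filter Set Metric
open scoped Real ContDiff

namespace Vale.Agent.P267.H498

noncomputable section

/-- mollified logarithm -/
def lg (p : ℂ) (ε : ℝ) (z : ℂ) : ℝ := (1 / 2) * Real.log (‖z - p‖ ^ 2 + ε ^ 2)

lemma Dpos {p : ℂ} {ε : ℝ} (hε : ε ≠ 0) (z : ℂ) : 0 < ‖z - p‖ ^ 2 + ε ^ 2 := by positivity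

lemma contDiff_normsq (p : ℂ) (ε : ℝ) : ContDiff ℝ 2 (fun z : ℂ => ‖z - p‖ ^ 2 + ε ^ 2) :=
  ((contDiff_id.sub contDiff_const).norm_sq ℝ).add contDiff_const

lemma contDiff_lg {p : ℂ} {ε : ℝ} (hε : ε ≠ 0) : ContDiff ℝ 2 (lg p ε) := by
  unfold lg
  exact contDiff_const.mul ((contDiff_normsq p ε).log fun z => (Dpos hε z).ne')

lemma hasFDerivAt_normsq (p : ℂ) (ε : ℝ) (z : ℂ) :
    HasFDerivAt (fun z : ℂ => ‖z - p‖ ^ 2 + ε ^ 2) (2 • innerSL ℝ (z - p)) z := by
  have h := ((hasFDerivAt_id z).sub_const p).norm_sq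
  have h2 := h.add_const (ε ^ 2)
  refine h2.congr_fderiv ?_
  ext <;> simp

lemma fderiv_lg {p : ℂ} {ε : ℝ} (hε : ε ≠ 0) (z v : ℂ) :
    fderiv ℝ (lg p ε) z v = inner ℝ (z - p) v / (‖z - p‖ ^ 2 + ε ^ 2) := by
  have h := (hasFDerivAt_normsq p ε z).log (Dpos hε z).ne'
  have h2 := h.const_mul (1 / 2)
  have : fderiv ℝ (lg p ε) z = _ := h2.fderiv
  rw [this]
  simp only [ContinuousLinearMap.smul_apply, innerSL_apply_apply, nsmul_eq_mul, smul_eq_mul]
  have hD := (Dpos (p := p) hε z).ne'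
  push_cast
  field_simp

lemma D2_lg {p : ℂ} {ε : ℝ} (hε : ε ≠ 0) (z v : ℂ) :
    D2 (lg p ε) v z = (‖v‖ ^ 2 * (‖z - p‖ ^ 2 + ε ^ 2) - 2 * (inner ℝ (z - p) v) ^ 2)
      / (‖z - p‖ ^ 2 + ε ^ 2) ^ 2 := by
  unfold D2
  have e : (fun w => fderiv ℝ (lg p ε) w v)
      = fun w => inner ℝ (w - p) v / (‖w - p‖ ^ 2 + ε ^ 2) := by
    ext w; exact fderiv_lg hε w v
  rw [e]
  have h1 : HasFDerivAt (fun w : ℂ => inner ℝ (w - p) v) (innerSL ℝ v) z := by
    have : HasFDerivAt (fun w : ℂ => innerSL ℝ v (w - p)) (innerSL ℝ v) z := by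
      have := ((innerSL ℝ v).hasFDerivAt (x := z - p)).comp z ((hasFDerivAt_id z).sub_const p)
      exact this.congr_fderiv (ContinuousLinearMap.comp_id _)
    refine this.congr_of_eventuallyEq (Eventually.of_forall fun w => ?_)
    simp only [innerSL_apply_apply]
    exact real_inner_comm _ _
  have h2 := hasFDerivAt_normsq p ε z
  have hD := (Dpos (p := p) hε z).ne'
  have h3 := h1.mul ((hasDerivAt_inv hD).comp_hasFDerivAt z h2)
  have h4 : HasFDerivAt (fun w : ℂ => inner ℝ (w - p) v / (‖w - p‖ ^ 2 + ε ^ 2)) _ z :=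
    h3.congr_of_eventuallyEq (Eventually.of_forall fun w => by
      simp only [Pi.mul_apply, Function.comp_apply, div_eq_mul_inv])
  rw [h4.fderiv]
  simp only [ContinuousLinearMap.add_apply, ContinuousLinearMap.smul_apply, innerSL_apply_apply,
    nsmul_eq_mul, real_inner_self_eq_norm_sq, smul_eq_mul, Function.comp_apply]
  push_cast
  field_simp
  ring

lemma laplacian_lg {p : ℂ} {ε : ℝ} (hε : ε ≠ 0) (z : ℂ) :
    Δ (lg p ε) z = 2 * ε ^ 2 / (‖z - p‖ ^ 2 + ε ^ 2) ^ 2 := by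
  rw [laplacian_eq (contDiff_lg hε).contDiffAt, D2_lg hε, D2_lg hε, ← add_div]
  congr 1
  have h1 : inner ℝ (z - p) (1 : ℂ) = (z - p).re := by simp [Complex.inner]
  have h2 : inner ℝ (z - p) Complex.I = (z - p).im := by
    simp [Complex.inner]; ring
  have h3 : ‖z - p‖ ^ 2 = (z - p).re ^ 2 + (z - p).im ^ 2 := by
    rw [Complex.sq_norm, Complex.normSq_apply]; ring
  rw [h1, h2, h3]
  simp only [norm_one, Complex.norm_I]
  ring

lemma integral_kernel : ∫ z : ℂ, 2 / (‖z‖ ^ 2 + 1) ^ 2 = 2 * π := by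
  have h := integral_fun_norm_addHaar (volume : Measure ℂ) (fun y : ℝ => 2 / (y ^ 2 + 1) ^ 2)
  rw [h]
  have hb : (volume : Measure ℂ).real (ball 0 1) = π := by
    rw [Measure.real, Complex.volume_ball]
    simp
  have hi : ∫ y in Ioi (0 : ℝ), y ^ (Module.finrank ℝ ℂ - 1) • (2 / (y ^ 2 + 1) ^ 2) = 1 := by
    simp only [Complex.finrank_real_complex, smul_eq_mul]
    have hd : ∀ x ∈ Ici (0 : ℝ), HasDerivAt (fun y : ℝ => - (y ^ 2 + 1)⁻¹)
        (x ^ (2 - 1) * (2 / (x ^ 2 + 1) ^ 2)) x := by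
      intro x _
      have h1 : HasDerivAt (fun y : ℝ => y ^ 2 + 1) (2 * x) x := by
        simpa using (hasDerivAt_pow 2 x).add_const 1
      have h2 := (h1.inv (by positivity)).neg
      refine h2.congr_deriv ?_
      simp only [Nat.add_one_sub_one, pow_one]
      ring
    have ht : Tendsto (fun y : ℝ => - (y ^ 2 + 1)⁻¹) atTop (𝓝 0) := by
      have : Tendsto (fun y : ℝ => y ^ 2 + 1) atTop atTop :=
        tendsto_atTop_add_const_right _ _ (tendsto_pow_atTop (by norm_num))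
      simpa using this.inv_tendsto_atTop.neg
    have := integral_Ioi_of_hasDerivAt_of_nonneg' hd (fun x hx => by
      have : (0 : ℝ) < x := hx
      positivity) ht
    rw [this]; norm_num
  rw [hi, hb]
  simp [Complex.finrank_real_complex]

lemma integrable_kernel : Integrable (fun z : ℂ => 2 / (‖z‖ ^ 2 + 1) ^ 2) := by
  by_contra h
  have := integral_kernel
  rw [integral_undef h] at this
  have := Real.pi_pos
  linarith

lemma tendsto_kernel {χ : ℂ → ℝ} (hχ : Continuous χ) (hc : HasCompactSupport χ) (p : ℂ) :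
    Tendsto (fun ε : ℝ => ∫ z, χ z * (2 * ε ^ 2 / (‖z - p‖ ^ 2 + ε ^ 2) ^ 2)) (𝓝[>] 0)
      (𝓝 (2 * π * χ p)) := by
  have e : ∀ ε : ℝ, 0 < ε → ∫ z, χ z * (2 * ε ^ 2 / (‖z - p‖ ^ 2 + ε ^ 2) ^ 2)
      = ∫ w : ℂ, χ (p + ε • w) * (2 / (‖w‖ ^ 2 + 1) ^ 2) := by
    intro ε hε
    have h1 : ∫ z, χ z * (2 * ε ^ 2 / (‖z - p‖ ^ 2 + ε ^ 2) ^ 2)
        = ∫ z, χ (p + z) * (2 * ε ^ 2 / (‖z‖ ^ 2 + ε ^ 2) ^ 2) := by
      rw [← integral_add_left_eq_self (μ := volume) _ p]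
      simp
    rw [h1]
    have h2 := Measure.integral_comp_smul_of_nonneg (μ := (volume : Measure ℂ))
      (fun z : ℂ => χ (p + z) * (2 * ε ^ 2 / (‖z‖ ^ 2 + ε ^ 2) ^ 2)) ε (hR := hε.le)
    simp only [Complex.finrank_real_complex] at h2
    have h3 : ∀ w : ℂ, χ (p + ε • w) * (2 * ε ^ 2 / (‖ε • w‖ ^ 2 + ε ^ 2) ^ 2)
        = (ε ^ 2)⁻¹ * (χ (p + ε • w) * (2 / (‖w‖ ^ 2 + 1) ^ 2)) := by
      intro w
      rw [norm_smul, Real.norm_of_nonneg hε.le]
      have : (ε * ‖w‖) ^ 2 + ε ^ 2 = ε ^ 2 * (‖w‖ ^ 2 + 1) := by ring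
      rw [this]
      have : ‖w‖ ^ 2 + 1 ≠ 0 := by positivity
      field_simp
    simp_rw [h3] at h2
    rw [integral_const_mul] at h2
    simp only [smul_eq_mul] at h2
    have h4 : (ε ^ 2)⁻¹ ≠ 0 := by positivity
    exact (mul_left_cancel₀ h4 h2).symm
  have h5 : (fun ε : ℝ => ∫ w : ℂ, χ (p + ε • w) * (2 / (‖w‖ ^ 2 + 1) ^ 2)) =ᶠ[𝓝[>] 0]
      (fun ε : ℝ => ∫ z, χ z * (2 * ε ^ 2 / (‖z - p‖ ^ 2 + ε ^ 2) ^ 2)) := by
    filter_upwards [self_mem_nhdsWithin] with ε hε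
    exact (e ε hε).symm
  refine Tendsto.congr' h5 ?_
  have h6 : 2 * π * χ p = ∫ w : ℂ, χ p * (2 / (‖w‖ ^ 2 + 1) ^ 2) := by
    rw [integral_const_mul, integral_kernel]; ring
  rw [h6]
  obtain ⟨C, hC⟩ := hχ.bounded_above_of_compact_support hc
  apply tendsto_integral_filter_of_dominated_convergence (fun w : ℂ => C * (2 / (‖w‖ ^ 2 + 1) ^ 2))
  · refine Eventually.of_forall fun ε => ?_
    apply Continuous.aestronglyMeasurable
    apply Continuous.mul
    · exact hχ.comp (continuous_const.add (continuous_id.const_smul ε))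
    · exact continuous_const.div ((continuous_norm.pow 2 |>.add continuous_const).pow 2) fun w => by positivity
  · refine Eventually.of_forall fun ε => Eventually.of_forall fun w => ?_
    rw [norm_mul, Real.norm_of_nonneg (show (0 : ℝ) ≤ 2 / (‖w‖ ^ 2 + 1) ^ 2 by positivity)]
    exact mul_le_mul_of_nonneg_right (hC _) (by positivity)
  · exact integrable_kernel.const_mul C
  · refine Eventually.of_forall fun w => ?_
    apply Tendsto.mul_const
    have : Continuous fun ε : ℝ => χ (p + ε • w) :=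
      hχ.comp (continuous_const.add (continuous_id.smul continuous_const))
    have := this.tendsto 0
    simp only [zero_smul, add_zero] at this
    exact this.mono_left nhdsWithin_le_nhds

end

end Vale.Agent.P267.H498
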