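import Mathlib
import Vale.Agent.P267.H498.Deg2

/-!
# P267 / CURV-C3 (helper498), part 3: the one dimensional Poincare-Lelong formula.
-/

open MeasureTheory InnerProductSpace Laplacian Topology Filter Set Metric
open scoped Real ContDiff

namespace Vale.Agent.P267.H498

noncomputable section

lemma locallyIntegrable_log_norm (p : ℂ) :
    LocallyIntegrable (fun z : ℂ => Real.log ‖z - p‖) := by
  have h0 : LocallyIntegrable (fun z : ℂ => Real.log ‖z‖) := by
    intro z
    refine ⟨ball 0 (‖z‖ + 1), isOpen_ball.mem_nhds (by simp), ?_⟩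
    have := (integrableOn_fun_norm_addHaar (volume : Measure ℂ) (f := Real.log) (r := ‖z‖ + 1)).2
    apply this
    simp only [Complex.finrank_real_complex, Nat.add_one_sub_one, pow_one, smul_eq_mul]
    have hc : Continuous (fun y : ℝ => y * Real.log y) := Real.continuous_mul_log
    exact (hc.continuousOn.integrableOn_Icc (a := 0) (b := ‖z‖ + 1)).mono_set Ioo_subset_Icc_self
  intro z
  obtain ⟨s, hs, hi⟩ := h0 (z - p)
  refine ⟨(fun w => w - p) ⁻¹' s, ?_, ?_⟩
  · exact (continuous_id.sub continuous_const).continuousAt.preimage_mem_nhds hs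
  · have hm : MeasurePreserving (fun w : ℂ => w - p) volume volume :=
      measurePreserving_sub_right volume p
    exact (hm.integrableOn_comp_preimage (MeasurableEquiv.subRight p).measurableEmbedding).2 hi

lemma abs_lg_le {p : ℂ} {ε : ℝ} (hε : 0 < ε) (hε1 : ε ≤ 1) {z : ℂ} (hz : z ≠ p) :
    |lg p ε z| ≤ |Real.log ‖z - p‖| + (1 / 2) * Real.log (‖z - p‖ ^ 2 + 1) := by
  have hn : 0 < ‖z - p‖ := by simpa [sub_eq_zero] using hz
  have h1 : lg p ε z ≤ (1 / 2) * Real.log (‖z - p‖ ^ 2 + 1) := by
    unfold lg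
    have : Real.log (‖z - p‖ ^ 2 + ε ^ 2) ≤ Real.log (‖z - p‖ ^ 2 + 1) := by
      apply Real.log_le_log (by positivity)
      nlinarith
    linarith
  have h2 : Real.log ‖z - p‖ ≤ lg p ε z := by
    unfold lg
    have : Real.log (‖z - p‖ ^ 2) ≤ Real.log (‖z - p‖ ^ 2 + ε ^ 2) := by
      apply Real.log_le_log (by positivity)
      nlinarith
    rw [Real.log_pow] at this
    push_cast at this
    linarith
  have h3 : 0 ≤ (1 / 2) * Real.log (‖z - p‖ ^ 2 + 1) := by
    have : 0 ≤ Real.log (‖z - p‖ ^ 2 + 1) := Real.log_nonneg (by nlinarith)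
    linarith
  rw [abs_le]
  constructor
  · have := neg_abs_le (Real.log ‖z - p‖)
    linarith
  · have := abs_nonneg (Real.log ‖z - p‖)
    linarith

/-- **The logarithmic potential** `Δ log ‖z - p‖ = 2 π δ_p`. -/
theorem integral_log_mul_laplacian {χ : ℂ → ℝ} (hχ : ContDiff ℝ 2 χ) (hc : HasCompactSupport χ)
    (p : ℂ) : ∫ z, Real.log ‖z - p‖ * Δ χ z = 2 * π * χ p := by
  have hΔc := continuous_laplacian hχ
  have hΔs := hasCompactSupport_laplacian hc
  have e : ∀ ε : ℝ, 0 < ε → ∫ z, lg p ε z * Δ χ z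
      = ∫ z, χ z * (2 * ε ^ 2 / (‖z - p‖ ^ 2 + ε ^ 2) ^ 2) := by
    intro ε hε
    rw [green isOpen_univ (contDiff_lg hε.ne').contDiffOn hχ hc (subset_univ _)]
    simp_rw [laplacian_lg hε.ne']
  have t1 := tendsto_kernel hχ.continuous hc p
  have t2 : Tendsto (fun ε : ℝ => ∫ z, lg p ε z * Δ χ z) (𝓝[>] 0)
      (𝓝 (∫ z, Real.log ‖z - p‖ * Δ χ z)) := by
    have hne : ∀ᵐ z : ℂ, z ≠ p := by
      rw [ae_iff]; simp
    have hbd : ∀ᶠ ε : ℝ in 𝓝[>] 0, 0 < ε ∧ ε ≤ 1 := by
      have : Ioc (0 : ℝ) 1 ∈ 𝓝[>] (0 : ℝ) := Ioc_mem_nhdsGT one_pos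
      filter_upwards [this] with ε hε using hε
    apply tendsto_integral_filter_of_dominated_convergence
      (fun z : ℂ => (|Real.log ‖z - p‖| + (1 / 2) * Real.log (‖z - p‖ ^ 2 + 1)) * |Δ χ z|)
    · filter_upwards [hbd] with ε hε
      exact ((contDiff_lg hε.1.ne').continuous.mul hΔc).aestronglyMeasurable
    · filter_upwards [hbd] with ε hε
      filter_upwards [hne] with z hz
      rw [Real.norm_eq_abs, abs_mul]
      exact mul_le_mul_of_nonneg_right (abs_lg_le hε.1 hε.2 hz) (abs_nonneg _)
    · have h1 : LocallyIntegrable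
          (fun z : ℂ => |Real.log ‖z - p‖| + (1 / 2) * Real.log (‖z - p‖ ^ 2 + 1)) := by
        apply LocallyIntegrable.add
        · intro z
          obtain ⟨s, hs, hi⟩ := locallyIntegrable_log_norm p z
          exact ⟨s, hs, hi.norm⟩
        · apply Continuous.locallyIntegrable
          apply continuous_const.mul
          apply Continuous.log
          · exact ((continuous_id.sub continuous_const).norm.pow 2).add continuous_const
          · intro z; positivity
      have := h1.integrable_smul_right_of_hasCompactSupport (g := fun z => |Δ χ z|) hΔc.abs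
        hΔs.abs
      simpa [smul_eq_mul] using this
    · filter_upwards [hne] with z hz
      have hn : ‖z - p‖ ≠ 0 := by simpa [sub_eq_zero] using hz
      apply Tendsto.mul_const
      have hcont : ContinuousAt (fun ε : ℝ => lg p ε z) 0 := by
        unfold lg
        apply continuousAt_const.mul
        apply ContinuousAt.log
        · exact continuousAt_const.add (continuousAt_id.pow 2)
        · simp; exact sub_ne_zero.2 hz
      have h0 : lg p 0 z = Real.log ‖z - p‖ := by
        unfold lg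
        simp only [ne_eq, OfNat.ofNat_ne_zero, not_false_eq_true, zero_pow, add_zero]
        rw [Real.log_pow]; push_cast; ring
      have := hcont.tendsto
      rw [h0] at this
      exact this.mono_left nhdsWithin_le_nhds
  have t3 : Tendsto (fun ε : ℝ => ∫ z, lg p ε z * Δ χ z) (𝓝[>] 0) (𝓝 (2 * π * χ p)) := by
    refine Tendsto.congr' ?_ t1
    filter_upwards [self_mem_nhdsWithin] with ε hε
    exact (e ε hε).symm
  exact tendsto_nhds_unique t2 t3

lemma integrable_log_mul_laplacian {χ : ℂ → ℝ} (hχ : ContDiff ℝ 2 χ) (hc : HasCompactSupport χ)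
    (p : ℂ) : Integrable fun z => Real.log ‖z - p‖ * Δ χ z := by
  have := (locallyIntegrable_log_norm p).integrable_smul_right_of_hasCompactSupport
    (g := fun z => Δ χ z) (continuous_laplacian hχ) (hasCompactSupport_laplacian hc)
  simpa [smul_eq_mul] using this

lemma contDiffAt_log_norm {p z : ℂ} (h : z ≠ p) : ContDiffAt ℝ 2 (fun w : ℂ => Real.log ‖w - p‖) z := by
  have h1 : z - p ≠ 0 := sub_ne_zero.2 h
  exact ((contDiffAt_id.sub contDiffAt_const).norm ℝ h1).log (norm_ne_zero_iff.2 h1)

lemma laplacian_log_norm {p z : ℂ} (h : z ≠ p) : Δ (fun w : ℂ => Real.log ‖w - p‖) z = 0 := by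
  have h1 : z - p ≠ 0 := sub_ne_zero.2 h
  have := ((analyticAt_id.sub analyticAt_const : AnalyticAt ℂ (fun w : ℂ => id w - p) z)).harmonicAt_log_norm h1
  exact this.2.eq_of_nhds

/-- **Local Poincare-Lelong formula in dimension one.** `u` is `C^2` on the open set `U` outside the
finite set `Z`, with a pole `m z * log ‖· - z‖` at `z ∈ Z`; `F = Δ u` off `Z`, `F` continuous on `U`;
`χ` a test function with support in `U`. -/
theorem lelong {U : Set ℂ} (hU : IsOpen U) {Z : Finset ℂ} {m : ℂ → ℝ} {u F χ : ℂ → ℝ}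
    (hu : ∀ z ∈ U, z ∉ Z → ContDiffAt ℝ 2 u z)
    (huZ : ∀ z ∈ U, z ∈ Z → ∃ v : ℂ → ℝ, ContDiffAt ℝ 2 v z ∧
      ∀ᶠ w in 𝓝[≠] z, u w = m z * Real.log ‖w - z‖ + v w)
    (hF : ContinuousOn F U) (hFu : ∀ z ∈ U, z ∉ Z → F z = Δ u z)
    (hχ : ContDiff ℝ 2 χ) (hc : HasCompactSupport χ) (hs : tsupport χ ⊆ U) :
    Integrable (fun z => u z * Δ χ z) ∧ Integrable (fun z => χ z * F z) ∧
    ∫ z, u z * Δ χ z = (∫ z, χ z * F z) + 2 * π * ∑ z ∈ Z, m z * χ z := by
  classical
  -- the corrected function
  set W : ℂ → ℝ := fun w => u w - ∑ q ∈ Z, m q * Real.log ‖w - q‖ with hW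
  -- choose local models
  have hex : ∀ z ∈ U, ∃ v : ℂ → ℝ, ContDiffAt ℝ 2 v z ∧ ∀ᶠ w in 𝓝[≠] z, W w = v w := by
    intro z hz
    by_cases hzZ : z ∈ Z
    · obtain ⟨v, hv, he⟩ := huZ z hz hzZ
      refine ⟨fun w => v w - ∑ q ∈ Z.erase z, m q * Real.log ‖w - q‖, ?_, ?_⟩
      · apply hv.sub
        apply ContDiffAt.sum
        intro q hq
        exact contDiffAt_const.mul (contDiffAt_log_norm (Finset.ne_of_mem_erase hq).symm)
      · filter_upwards [he] with w hw
        rw [hW]
        simp only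
        rw [hw, ← Finset.add_sum_erase Z _ hzZ]
        ring
    · refine ⟨W, ?_, Eventually.of_forall fun _ => rfl⟩
      apply (hu z hz hzZ).sub
      apply ContDiffAt.sum
      intro q hq
      exact contDiffAt_const.mul (contDiffAt_log_norm (fun h => hzZ (h ▸ hq)))
  choose! V hV hVe using hex
  -- corrected global function
  set V' : ℂ → ℝ := fun w => if w ∈ Z then V w w else W w with hV'
  have hWz : ∀ z ∈ U, z ∉ Z → V z z = W z := by
    intro z hz hzZ
    have h1 : ContinuousAt W z := by
      apply ContinuousAt.sub (hu z hz hzZ).continuousAt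
      apply tendsto_finsetSum
      intro q hq
      have hne : z ≠ q := fun h => hzZ (h ▸ hq)
      exact (contDiffAt_const.mul (contDiffAt_log_norm hne) : ContDiffAt ℝ 2
        (fun w => m q * Real.log ‖w - q‖) z).continuousAt
    have h2 : ContinuousAt (V z) z := (hV z hz).continuousAt
    have h3 : Tendsto W (𝓝[≠] z) (𝓝 (V z z)) :=
      Tendsto.congr' ((hVe z hz).mono fun w hw => hw.symm) (h2.tendsto.mono_left nhdsWithin_le_nhds)
    exact tendsto_nhds_unique h3 (h1.tendsto.mono_left nhdsWithin_le_nhds)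
  have hV'eq : ∀ z ∈ U, V' =ᶠ[𝓝 z] V z := by
    intro z hz
    have h1 : ∀ᶠ w in 𝓝[≠] z, w ∉ Z := by
      have : ((Z : Set ℂ) \ {z}).Finite := (Z.finite_toSet).subset sdiff_subset
      have h2 : ((Z : Set ℂ) \ {z})ᶜ ∈ 𝓝 z := this.isClosed.isOpen_compl.mem_nhds (by simp)
      filter_upwards [mem_nhdsWithin_of_mem_nhds h2, self_mem_nhdsWithin] with w hw hw2 hwZ
      exact hw ⟨hwZ, hw2⟩
    have h3 : ∀ᶠ w in 𝓝[≠] z, V' w = V z w := by
      filter_upwards [h1, hVe z hz] with w hw hw2
      simp only [hV', hw, if_false]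
      exact hw2
    have h4 : V' z = V z z := by
      by_cases hzZ : z ∈ Z
      · simp [hV', hzZ]
      · simp only [hV', hzZ, if_false]
        exact (hWz z hz hzZ).symm
    rw [eventually_nhdsWithin_iff] at h3
    filter_upwards [h3] with w hw
    by_cases hwz : w = z
    · rw [hwz]; exact h4
    · exact hw hwz
  have hV'c : ContDiffOn ℝ 2 V' U := fun z hz =>
    ((hV z hz).congr_of_eventuallyEq (hV'eq z hz)).contDiffWithinAt
  have hZm : ∀ᵐ z : ℂ, z ∉ Z := by
    have : (volume : Measure ℂ) (Z : Set ℂ) = 0 := Z.finite_toSet.measure_zero _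
    rw [ae_iff]
    simpa using this
  have hlap : ∀ z ∈ U, z ∉ Z → Δ V' z = F z := by
    intro z hz hzZ
    rw [hFu z hz hzZ]
    have hWe : V' =ᶠ[𝓝 z] W := by
      have : (Z : Set ℂ)ᶜ ∈ 𝓝 z := Z.finite_toSet.isClosed.isOpen_compl.mem_nhds hzZ
      filter_upwards [this] with w hw
      have hw' : w ∉ Z := hw
      simp [hV', hw']
    rw [(laplacian_congr_nhds hWe).eq_of_nhds]
    have e1 : W = u - (fun w => ∑ q ∈ Z, m q * Real.log ‖w - q‖) := rfl
    have hsm : ∀ q ∈ Z, ContDiffAt ℝ 2 (fun w => m q * Real.log ‖w - q‖) z := fun q hq =>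
      contDiffAt_const.mul (contDiffAt_log_norm (fun h => hzZ (h ▸ hq)))
    rw [e1, (hu z hz hzZ).laplacian_sub (ContDiffAt.sum hsm)]
    have e2 : Δ (fun w => ∑ q ∈ Z, m q * Real.log ‖w - q‖) z = 0 := by
      rw [laplacian_eq (ContDiffAt.sum hsm), ]
      have key : ∀ v : ℂ, D2 (fun w => ∑ q ∈ Z, m q * Real.log ‖w - q‖) v z
          = ∑ q ∈ Z, m q * D2 (fun w => Real.log ‖w - q‖) v z := by
        intro v
        have hne : (Z : Set ℂ)ᶜ ∈ 𝓝 z := Z.finite_toSet.isClosed.isOpen_compl.mem_nhds hzZ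
        have h1 : (fun w => fderiv ℝ (fun w => ∑ q ∈ Z, m q * Real.log ‖w - q‖) w v)
            =ᶠ[𝓝 z] fun w => ∑ q ∈ Z, m q * fderiv ℝ (fun w => Real.log ‖w - q‖) w v := by
          filter_upwards [hne] with w hw
          have hd : ∀ q ∈ Z, HasFDerivAt (fun w => m q * Real.log ‖w - q‖)
              (m q • fderiv ℝ (fun w => Real.log ‖w - q‖) w) w := fun q hq =>
            (((contDiffAt_log_norm (p := q) (z := w) (fun h => hw (h ▸ hq))).differentiableAt
              (by norm_num)).hasFDerivAt).const_mul (m q)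
          have := (HasFDerivAt.fun_sum hd).fderiv
          rw [this]
          simp
        unfold D2
        rw [h1.fderiv_eq]
        have hd2 : ∀ q ∈ Z, HasFDerivAt
            (fun w => m q * fderiv ℝ (fun w => Real.log ‖w - q‖) w v)
            (m q • fderiv ℝ (fun w => fderiv ℝ (fun w => Real.log ‖w - q‖) w v) z) z := by
          intro q hq
          have hcd := contDiffAt_log_norm (p := q) (z := z) (fun h => hzZ (h ▸ hq))
          have : ContDiffAt ℝ 1 (fun w => fderiv ℝ (fun w => Real.log ‖w - q‖) w v) z :=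
            (hcd.fderiv_right (m := 1) (by norm_num)).clm_apply contDiffAt_const
          exact (this.differentiableAt (by norm_num)).hasFDerivAt.const_mul (m q)
        have := (HasFDerivAt.fun_sum hd2).fderiv
        rw [this]
        simp
      rw [key, key, ← Finset.sum_add_distrib]
      apply Finset.sum_eq_zero
      intro q hq
      have hne : z ≠ q := fun h => hzZ (h ▸ hq)
      rw [← mul_add, ← laplacian_eq (contDiffAt_log_norm hne), laplacian_log_norm hne, mul_zero]
    rw [e2, sub_zero]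
  have hg := green hU hV'c hχ hc hs
  have hχF : ∫ z, χ z * Δ V' z = ∫ z, χ z * F z := by
    apply integral_congr_ae
    filter_upwards [hZm] with z hz
    by_cases hzs : z ∈ tsupport χ
    · simp only [hlap z (hs hzs) hz]
    · simp [image_eq_zero_of_notMem_tsupport hzs]
  have hK : IsCompact (tsupport χ) := hc
  have iV : Integrable fun z => V' z * Δ χ z := by
    apply integrable_of_support hK
    · exact (hV'c.continuousOn.mono hs).mul (continuous_laplacian hχ).continuousOn
    · intro z hz; simp [laplacian_eq_zero_of_notMem hz]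
  have iF : Integrable fun z => χ z * F z := by
    apply integrable_of_support hK
    · exact hχ.continuous.continuousOn.mul (hF.mono hs)
    · intro z hz; simp [image_eq_zero_of_notMem_tsupport hz]
  have iL : Integrable fun z => ∑ q ∈ Z, m q * (Real.log ‖z - q‖ * Δ χ z) :=
    integrable_finsetSum _ fun q _ => (integrable_log_mul_laplacian hχ hc q).const_mul _
  have eae : (fun z => u z * Δ χ z) =ᵐ[volume]
      fun z => V' z * Δ χ z + ∑ q ∈ Z, m q * (Real.log ‖z - q‖ * Δ χ z) := by
    filter_upwards [hZm] with z hz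
    simp only [hV', hz, if_false, hW]
    rw [sub_mul, Finset.sum_mul]
    have : ∀ q, m q * Real.log ‖z - q‖ * Δ χ z = m q * (Real.log ‖z - q‖ * Δ χ z) := fun q => by ring
    simp_rw [this]
    ring
  refine ⟨(iV.add iL).congr eae.symm, iF, ?_⟩
  rw [integral_congr_ae eae, integral_add iV iL, hg, hχF, integral_finsetSum _ (fun q _ =>
    (integrable_log_mul_laplacian hχ hc q).const_mul _)]
  congr 1
  rw [Finset.mul_sum]
  apply Finset.sum_congr rfl
  intro q _
  rw [integral_const_mul, integral_log_mul_laplacian hχ hc q]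
  ring

end

end Vale.Agent.P267.H498
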