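import Mathlib
import Vale.Agent.P267.H498.Deg3

/-!
# P267 / CURV-C3 (helper498), part 4: conformal covariance, degree on the projective line.
-/

open MeasureTheory InnerProductSpace Laplacian Topology Filter Set Metric
open scoped Real ContDiff

namespace Vale.Agent.P267.H498

noncomputable section

lemma bilin_conf (B : ℂ →L[ℝ] ℂ →L[ℝ] ℝ) (a : ℂ) :
    B a a + B (a * Complex.I) (a * Complex.I)
      = ‖a‖ ^ 2 * (B 1 1 + B Complex.I Complex.I) := by
  have e1 : a = a.re • (1 : ℂ) + a.im • Complex.I := by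
    apply Complex.ext <;> simp
  have e2 : a * Complex.I = (- a.im) • (1 : ℂ) + a.re • Complex.I := by
    apply Complex.ext <;> simp
  have h3 : ‖a‖ ^ 2 = a.re ^ 2 + a.im ^ 2 := by
    rw [Complex.sq_norm, Complex.normSq_apply]; ring
  rw [e2, h3]
  have e3 : B a a = B (a.re • (1 : ℂ) + a.im • Complex.I) (a.re • (1 : ℂ) + a.im • Complex.I) := by
    rw [← e1]
  rw [e3]
  simp only [map_add, map_smul, ContinuousLinearMap.add_apply, ContinuousLinearMap.smul_apply,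
    smul_eq_mul]
  ring

lemma D2_comp_hol {f : ℂ → ℝ} {τ : ℂ → ℂ} {z : ℂ} (hf : ContDiffAt ℝ 2 f (τ z))
    (hτ : AnalyticAt ℂ τ z) (v : ℂ) :
    D2 (f ∘ τ) v z = fderiv ℝ (fderiv ℝ f) (τ z) (deriv τ z * v) (deriv τ z * v)
      + fderiv ℝ f (τ z) (deriv (deriv τ) z * v * v) := by
  have hτc : ContinuousAt τ z := hτ.continuousAt
  have h1 : (fun w => fderiv ℝ (f ∘ τ) w v) =ᶠ[𝓝 z]
      fun w => fderiv ℝ f (τ w) (deriv τ w * v) := by
    have a1 : ∀ᶠ w in 𝓝 z, ContDiffAt ℝ 2 f (τ w) :=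
      hτc.eventually (hf.eventually (by simp))
    have a2 : ∀ᶠ w in 𝓝 z, AnalyticAt ℂ τ w := hτ.eventually_analyticAt
    filter_upwards [a1, a2] with w hw1 hw2
    have d1 : HasFDerivAt f (fderiv ℝ f (τ w)) (τ w) :=
      (hw1.differentiableAt (by norm_num)).hasFDerivAt
    have d2 := (hw2.differentiableAt.hasDerivAt.hasFDerivAt.restrictScalars ℝ)
    have d3 := d1.comp w d2
    rw [d3.fderiv]
    simp [mul_comm]
  unfold D2
  rw [h1.fderiv_eq]
  have hf1 : HasFDerivAt (fderiv ℝ f) (fderiv ℝ (fderiv ℝ f) (τ z)) (τ z) :=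
    ((hf.fderiv_right (m := 1) (by norm_num)).differentiableAt (by norm_num)).hasFDerivAt
  have hτ1 := (hτ.differentiableAt.hasDerivAt.hasFDerivAt.restrictScalars ℝ)
  have hc := hf1.comp z hτ1
  have hτ2 := ((hτ.deriv.differentiableAt.hasDerivAt.mul_const v).hasFDerivAt.restrictScalars ℝ)
  have h2 := hc.clm_apply hτ2
  have h3 : HasFDerivAt (fun w => fderiv ℝ f (τ w) (deriv τ w * v)) _ z := h2
  rw [h3.fderiv]
  simp only [ContinuousLinearMap.add_apply, ContinuousLinearMap.comp_apply,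
    ContinuousLinearMap.flip_apply, Function.comp_apply]
  rw [add_comm]
  congr 1
  · simp [mul_comm]
  · simp [mul_comm, mul_assoc, mul_left_comm]

/-- conformal covariance of the Laplacian. -/
theorem laplacian_comp_hol {f : ℂ → ℝ} {τ : ℂ → ℂ} {z : ℂ} (hf : ContDiffAt ℝ 2 f (τ z))
    (hτ : AnalyticAt ℂ τ z) : Δ (f ∘ τ) z = ‖deriv τ z‖ ^ 2 * Δ f (τ z) := by
  have hτr : ContDiffAt ℝ 2 τ z := (hτ.contDiffAt.restrict_scalars ℝ)
  rw [laplacian_eq (hf.comp z hτr), laplacian_eq hf, D2_comp_hol hf hτ, D2_comp_hol hf hτ,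
    D2_eq hf, D2_eq hf]
  have h := bilin_conf (fderiv ℝ (fderiv ℝ f) (τ z)) (deriv τ z)
  have e : deriv (deriv τ) z * 1 * 1 + deriv (deriv τ) z * Complex.I * Complex.I = 0 := by
    have := Complex.I_mul_I
    linear_combination (deriv (deriv τ) z) * this
  have h4 : fderiv ℝ f (τ z) (deriv (deriv τ) z * 1 * 1)
      + fderiv ℝ f (τ z) (deriv (deriv τ) z * Complex.I * Complex.I) = 0 := by
    rw [← map_add, e, map_zero]
  rw [← h, mul_one]
  rw [mul_one, ] at h4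
  simp only [mul_one] at *
  linarith

lemma integral_laplacian_eq_zero {χ : ℂ → ℝ} (hχ : ContDiff ℝ 2 χ) (hc : HasCompactSupport χ) :
    ∫ z, Δ χ z = 0 := by
  have := green isOpen_univ (u := fun _ => (1 : ℝ)) contDiffOn_const hχ hc (subset_univ _)
  simpa using this

/-- the standard cut-off -/
def bmp : ContDiffBump (0 : ℂ) := ⟨1, 2, one_pos, by norm_num⟩

/-- the cut-off at scale `R` -/
def cut (R : ℝ) (z : ℂ) : ℝ := bmp ((R⁻¹ : ℝ) * z : ℂ)

lemma contDiff_cut (R : ℝ) : ContDiff ℝ 2 (cut R) :=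
  (bmp.contDiff (n := 2)).comp (contDiff_const.mul contDiff_id)

lemma cut_nonneg (R : ℝ) (z : ℂ) : 0 ≤ cut R z := bmp.nonneg
lemma cut_le_one (R : ℝ) (z : ℂ) : cut R z ≤ 1 := bmp.le_one

lemma cut_eq_one {R : ℝ} (hR : 0 < R) {z : ℂ} (hz : ‖z‖ ≤ R) : cut R z = 1 := by
  apply bmp.one_of_mem_closedBall
  rw [mem_closedBall_zero_iff, norm_mul, Complex.norm_real, Real.norm_of_nonneg (by positivity)]
  show R⁻¹ * ‖z‖ ≤ 1
  rw [inv_mul_le_iff₀ hR]; linarith

lemma cut_eq_zero {R : ℝ} (hR : 0 < R) {z : ℂ} (hz : 2 * R ≤ ‖z‖) : cut R z = 0 := by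
  apply bmp.zero_of_le_dist
  rw [dist_zero_right, norm_mul, Complex.norm_real, Real.norm_of_nonneg (by positivity)]
  show (2 : ℝ) ≤ R⁻¹ * ‖z‖
  rw [le_inv_mul_iff₀ hR]; linarith

lemma tsupport_cut_subset {R : ℝ} (hR : 0 < R) : tsupport (cut R) ⊆ closedBall 0 (2 * R) := by
  apply closure_minimal _ isClosed_closedBall
  intro z hz
  by_contra h
  rw [mem_closedBall_zero_iff, not_le] at h
  exact hz (cut_eq_zero hR h.le)

lemma hasCompactSupport_cut {R : ℝ} (hR : 0 < R) : HasCompactSupport (cut R) :=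
  HasCompactSupport.of_support_subset_isCompact (isCompact_closedBall 0 (2 * R))
    ((subset_tsupport _).trans (tsupport_cut_subset hR))

lemma laplacian_cut {R : ℝ} (z : ℂ) :
    Δ (cut R) z = (R⁻¹) ^ 2 * Δ (cut 1) ((R⁻¹ : ℝ) * z : ℂ) := by
  have hτ : AnalyticAt ℂ (fun z : ℂ => ((R⁻¹ : ℝ) : ℂ) * z) z := analyticAt_const.mul analyticAt_id
  have h := laplacian_comp_hol (f := cut 1) (τ := fun z : ℂ => ((R⁻¹ : ℝ) : ℂ) * z) (z := z)
    (contDiff_cut 1).contDiffAt hτ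
  have e : cut 1 ∘ (fun z : ℂ => ((R⁻¹ : ℝ) : ℂ) * z) = cut R := by
    ext w; simp [cut]
  rw [e] at h
  rw [h]
  have : deriv (fun z : ℂ => ((R⁻¹ : ℝ) : ℂ) * z) z = ((R⁻¹ : ℝ) : ℂ) := by
    simpa using ((hasDerivAt_id z).const_mul ((R⁻¹ : ℝ) : ℂ)).deriv
  rw [this, Complex.norm_real, Real.norm_eq_abs, sq_abs]

lemma laplacian_cut_eq_zero {R : ℝ} (hR : 0 < R) {z : ℂ} (hz : ‖z‖ < R) : Δ (cut R) z = 0 := by
  have h1 : cut R =ᶠ[𝓝 z] fun _ => (1 : ℝ) := by
    have : ball (0 : ℂ) R ∈ 𝓝 z := isOpen_ball.mem_nhds (by simpa using hz)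
    filter_upwards [this] with w hw
    exact cut_eq_one hR (by simpa using (mem_ball_zero_iff.1 hw).le)
  rw [(laplacian_congr_nhds h1).eq_of_nhds]
  simp

lemma integral_abs_laplacian_cut {R : ℝ} (hR : 0 < R) :
    ∫ z, |Δ (cut R) z| = ∫ z, |Δ (cut 1) z| := by
  have h := Measure.integral_comp_smul_of_nonneg (μ := (volume : Measure ℂ))
    (fun z : ℂ => |Δ (cut 1) z|) (R⁻¹) (hR := by positivity)
  have e : ∀ z : ℂ, |Δ (cut R) z| = (R⁻¹) ^ 2 * |Δ (cut 1) ((R⁻¹ : ℝ) • z)| := by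
    intro z
    rw [laplacian_cut, abs_mul, abs_of_nonneg (by positivity : (0 : ℝ) ≤ (R⁻¹) ^ 2)]
    rfl
  simp_rw [e]
  rw [integral_const_mul, h]
  simp only [Complex.finrank_real_complex, smul_eq_mul]
  have : (R⁻¹ ^ 2) ≠ 0 := by positivity
  field_simp

end

end Vale.Agent.P267.H498
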