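import Mathlib
import Vale.Agent.P267.H498.Deg4

/-!
# P267 / CURV-C3 (helper498), part 5: degree on the projective line.

`degree_P1`: `u` (think of `log |s|^2`) is `C^2` on `ℂ` off a finite set, with logarithmic poles of
weight `m z` at the points of that set and of weight `minf` at infinity; `F` continuous, `F = Δ u`
off the poles.  Then `F` is integrable and `∫ F = - 2 π (∑ m z + minf)`.
-/

open MeasureTheory InnerProductSpace Laplacian Topology Filter Set Metric
open scoped Real ContDiff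

namespace Vale.Agent.P267.H498

noncomputable section

theorem degree_P1 {Z : Finset ℂ} {m : ℂ → ℝ} {u F : ℂ → ℝ} {minf : ℝ}
    (hu : ∀ z, z ∉ Z → ContDiffAt ℝ 2 u z)
    (huZ : ∀ z ∈ Z, ∃ v : ℂ → ℝ, ContDiffAt ℝ 2 v z ∧
      ∀ᶠ w in 𝓝[≠] z, u w = m z * Real.log ‖w - z‖ + v w)
    (hinf : ∃ v : ℂ → ℝ, ContDiffAt ℝ 2 v 0 ∧
      ∀ᶠ w in 𝓝[≠] (0 : ℂ), u w⁻¹ = minf * Real.log ‖w‖ + v w)
    (hF : Continuous F) (hFu : ∀ z, z ∉ Z → F z = Δ u z) :
    Integrable F ∧ ∫ z, F z = - 2 * π * (∑ z ∈ Z, m z + minf) := by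
  classical
  obtain ⟨v, hv, hve⟩ := hinf
  -- choose a radius
  obtain ⟨r, hr0, hr1, hrv, hrc, hrZ, hrb⟩ : ∃ r : ℝ, 0 < r ∧ r ≤ 1 ∧
      (∀ w : ℂ, w ≠ 0 → ‖w‖ < r → u w⁻¹ = minf * Real.log ‖w‖ + v w) ∧
      (∀ w : ℂ, ‖w‖ < r → ContDiffAt ℝ 2 v w) ∧ (∀ w : ℂ, w ≠ 0 → ‖w‖ < r → w⁻¹ ∉ Z) ∧
      ∃ C : ℝ, ∀ w : ℂ, ‖w‖ < r → |Δ v w| ≤ C := by
    have h1 : ∀ᶠ w in 𝓝 (0 : ℂ), w ≠ 0 → u w⁻¹ = minf * Real.log ‖w‖ + v w := by
      rw [eventually_nhdsWithin_iff] at hve
      exact hve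
    have h2 : ∀ᶠ w in 𝓝 (0 : ℂ), ContDiffAt ℝ 2 v w := hv.eventually (by simp)
    have h3 : ∀ᶠ w in 𝓝 (0 : ℂ), w ≠ 0 → w⁻¹ ∉ Z := by
      have : ∀ q ∈ Z, ∀ᶠ w in 𝓝 (0 : ℂ), w ≠ 0 → w⁻¹ ≠ q := by
        intro q _
        by_cases hq : q = 0
        · refine Eventually.of_forall fun w hw h => ?_
          rw [hq] at h
          exact hw (inv_eq_zero.1 h)
        · have : ({q⁻¹} : Set ℂ)ᶜ ∈ 𝓝 (0 : ℂ) :=
            isClosed_singleton.isOpen_compl.mem_nhds (by simpa using (inv_ne_zero hq).symm)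
          filter_upwards [this] with w hw _ h
          apply hw
          simp [← h]
      have := (Filter.eventually_all_finset Z).2 this
      filter_upwards [this] with w hw hw0 hwZ
      exact hw _ hwZ hw0 rfl
    have h4 : ∀ᶠ w in 𝓝 (0 : ℂ), |Δ v w| < |Δ v 0| + 1 := by
      have hcont : ContinuousAt (Δ v) 0 := by
        have he : Δ v =ᶠ[𝓝 0] fun z => D2 v 1 z + D2 v Complex.I z := by
          filter_upwards [h2] with w hw
          exact laplacian_eq hw
        refine ContinuousAt.congr ?_ he.symm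
        have hd : ∀ a : ℂ, ContinuousAt (D2 v a) 0 := fun a => by
          have hχ1 : ContDiffAt ℝ 1 (fun w => fderiv ℝ v w a) 0 :=
            (hv.fderiv_right (m := 1) (by norm_num)).clm_apply contDiffAt_const
          have := (hχ1.fderiv_right (m := 0) (by norm_num)).continuousAt
          exact this.clm_apply continuousAt_const
        exact (hd 1).add (hd _)
      have := hcont.abs.tendsto
      exact this.eventually (gt_mem_nhds (by linarith))
    obtain ⟨r, hr, hrr⟩ := Metric.eventually_nhds_iff.1 (h1.and (h2.and (h3.and h4)))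
    refine ⟨min r 1, lt_min hr one_pos, min_le_right _ _, ?_, ?_, ?_, |Δ v 0| + 1, ?_⟩
    · intro w hw0 hw
      exact (hrr (by simpa using lt_of_lt_of_le hw (min_le_left _ _))).1 hw0
    · intro w hw
      exact (hrr (by simpa using lt_of_lt_of_le hw (min_le_left _ _))).2.1
    · intro w hw0 hw
      exact (hrr (by simpa using lt_of_lt_of_le hw (min_le_left _ _))).2.2.1 hw0
    · intro w hw
      exact (hrr (by simpa using lt_of_lt_of_le hw (min_le_left _ _))).2.2.2.le
  obtain ⟨C, hC⟩ := hrb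
  have hC0 : 0 ≤ C := (abs_nonneg _).trans (hC 0 (by simpa using hr0))
  -- behaviour of u for large z
  have hbig : ∀ z : ℂ, r⁻¹ < ‖z‖ → u z = -minf * Real.log ‖z‖ + v z⁻¹ := by
    intro z hz
    have hz0 : z ≠ 0 := by
      rintro rfl
      simp at hz
      linarith [inv_pos.2 hr0]
    have := hrv z⁻¹ (inv_ne_zero hz0) (by
      rw [norm_inv]
      exact inv_lt_of_inv_lt₀ hr0 hz)
    rw [inv_inv] at this
    rw [this, norm_inv, Real.log_inv]
    ring
  have hbigZ : ∀ z : ℂ, r⁻¹ < ‖z‖ → z ∉ Z := by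
    intro z hz
    have hz0 : z ≠ 0 := by
      rintro rfl
      simp at hz
      linarith [inv_pos.2 hr0]
    have := hrZ z⁻¹ (inv_ne_zero hz0) (by
      rw [norm_inv]
      exact inv_lt_of_inv_lt₀ hr0 hz)
    rwa [inv_inv] at this
  have hbigF : ∀ z : ℂ, r⁻¹ < ‖z‖ → |F z| ≤ C / ‖z‖ ^ 4 := by
    intro z hz
    have hz0 : z ≠ 0 := by
      rintro rfl
      simp at hz
      linarith [inv_pos.2 hr0]
    have hn : ‖z⁻¹‖ < r := by
      rw [norm_inv]
      exact inv_lt_of_inv_lt₀ hr0 hz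
    rw [hFu z (hbigZ z hz)]
    have h1 : u =ᶠ[𝓝 z] (fun w => -minf * Real.log ‖w - 0‖) + (v ∘ fun w => w⁻¹) := by
      have : {w : ℂ | r⁻¹ < ‖w‖} ∈ 𝓝 z := (isOpen_lt continuous_const continuous_norm).mem_nhds hz
      filter_upwards [this] with w hw
      simp only [Pi.add_apply, Function.comp_apply, sub_zero]
      exact hbig w hw
    rw [(laplacian_congr_nhds h1).eq_of_nhds]
    have hinv : AnalyticAt ℂ (fun w : ℂ => w⁻¹) z := analyticAt_inv hz0
    have c1 : ContDiffAt ℝ 2 (fun w : ℂ => -minf * Real.log ‖w - 0‖) z :=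
      contDiffAt_const.mul (contDiffAt_log_norm hz0)
    have c2 : ContDiffAt ℝ 2 (v ∘ fun w => w⁻¹) z :=
      (hrc _ hn).comp z (hinv.contDiffAt.restrict_scalars ℝ)
    rw [c1.laplacian_add c2, laplacian_comp_hol (hrc _ hn) hinv]
    have e1 : Δ (fun w : ℂ => -minf * Real.log ‖w - 0‖) z = 0 := by
      have := laplacian_smul (-minf) (contDiffAt_log_norm (p := 0) hz0)
      have e : (fun w : ℂ => -minf * Real.log ‖w - 0‖)
        = (-minf) • (fun w : ℂ => Real.log ‖w - 0‖) := rfl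
      rw [e, this, laplacian_log_norm hz0, smul_zero]
    rw [e1, zero_add, abs_mul, abs_of_nonneg (by positivity)]
    have e2 : ‖deriv (fun w : ℂ => w⁻¹) z‖ ^ 2 = 1 / ‖z‖ ^ 4 := by
      have : deriv (fun w : ℂ => w⁻¹) z = -(z ^ 2)⁻¹ := by
        simpa using (hasDerivAt_inv hz0).deriv
      rw [this, norm_neg, norm_inv, norm_pow]
      field_simp
    rw [e2, one_div, div_eq_inv_mul]
    exact mul_le_mul_of_nonneg_left (hC _ hn) (by positivity)
  -- integrability of F
  have hFint : Integrable F := by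
    have hcont : Continuous fun z : ℂ => |F z| * ((‖z‖ ^ 2 + 1) ^ 2 / 2) :=
      hF.abs.mul (((continuous_norm.pow 2).add continuous_const).pow 2 |>.div_const _)
    obtain ⟨C1, hC1⟩ := ((isCompact_closedBall (0 : ℂ) r⁻¹).image hcont).bddAbove
    have hC1' : ∀ z : ℂ, ‖z‖ ≤ r⁻¹ → |F z| * ((‖z‖ ^ 2 + 1) ^ 2 / 2) ≤ C1 := fun z hz =>
      hC1 ⟨z, by simpa using hz, rfl⟩
    have hbound : ∀ z : ℂ, ‖F z‖ ≤ (max C1 (2 * C)) * (2 / (‖z‖ ^ 2 + 1) ^ 2) := by
      intro z
      rw [Real.norm_eq_abs]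
      have hp : 0 < (‖z‖ ^ 2 + 1) ^ 2 := by positivity
      rw [← div_le_iff₀ (by positivity)]
      have e : |F z| / (2 / (‖z‖ ^ 2 + 1) ^ 2) = |F z| * ((‖z‖ ^ 2 + 1) ^ 2 / 2) := by
        field_simp
      rw [e]
      by_cases hz : ‖z‖ ≤ r⁻¹
      · exact (hC1' z hz).trans (le_max_left _ _)
      · refine le_trans ?_ (le_max_right _ _)
        rw [not_le] at hz
        have h1z : 1 ≤ ‖z‖ := by
          have : 1 ≤ r⁻¹ := (one_le_inv₀ hr0).2 hr1
          linarith
        have hz4 : 0 < ‖z‖ ^ 4 := by positivity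
        have h2 : (‖z‖ ^ 2 + 1) ^ 2 / 2 ≤ 2 * ‖z‖ ^ 4 := by
          have : ‖z‖ ^ 2 + 1 ≤ 2 * ‖z‖ ^ 2 := by nlinarith
          have h3 : (‖z‖ ^ 2 + 1) ^ 2 ≤ (2 * ‖z‖ ^ 2) ^ 2 := by gcongr
          nlinarith
        calc |F z| * ((‖z‖ ^ 2 + 1) ^ 2 / 2) ≤ (C / ‖z‖ ^ 4) * (2 * ‖z‖ ^ 4) :=
              mul_le_mul (hbigF z hz) h2 (by positivity) (by positivity)
          _ = 2 * C := by field_simp
    exact (integrable_kernel.const_mul _).mono' hF.aestronglyMeasurable
      (Eventually.of_forall hbound)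
  refine ⟨hFint, ?_⟩
  -- the identity at scale R
  have hid : ∀ R : ℝ, 0 < R → Integrable (fun z => u z * Δ (cut R) z) ∧
      ∫ z, u z * Δ (cut R) z = (∫ z, cut R z * F z) + 2 * π * ∑ z ∈ Z, m z * cut R z := by
    intro R hR
    have := lelong isOpen_univ (Z := Z) (m := m) (u := u) (F := F) (χ := cut R)
      (fun z _ hz => hu z hz) (fun z _ hz => huZ z hz) hF.continuousOn (fun z _ hz => hFu z hz)
      (contDiff_cut R) (hasCompactSupport_cut hR) (subset_univ _)
    exact ⟨this.1, this.2.2⟩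
  -- limits
  have L1 : Tendsto (fun R : ℝ => ∫ z, cut R z * F z) atTop (𝓝 (∫ z, F z)) := by
    apply tendsto_integral_filter_of_dominated_convergence (fun z => ‖F z‖)
    · exact Eventually.of_forall fun R => ((contDiff_cut R).continuous.mul hF).aestronglyMeasurable
    · refine Eventually.of_forall fun R => Eventually.of_forall fun z => ?_
      rw [norm_mul, Real.norm_of_nonneg (cut_nonneg R z)]
      exact mul_le_of_le_one_left (norm_nonneg _) (cut_le_one R z)
    · exact hFint.norm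
    · refine Eventually.of_forall fun z => ?_
      refine tendsto_const_nhds.congr' ?_
      filter_upwards [eventually_ge_atTop ‖z‖, eventually_gt_atTop 0] with R hR hR0
      rw [cut_eq_one hR0 hR, one_mul]
  have L2 : Tendsto (fun R : ℝ => ∑ z ∈ Z, m z * cut R z) atTop (𝓝 (∑ z ∈ Z, m z)) := by
    apply tendsto_finsetSum
    intro z _
    refine tendsto_const_nhds.congr' ?_
    filter_upwards [eventually_ge_atTop ‖z‖, eventually_gt_atTop 0] with R hR hR0
    rw [cut_eq_one hR0 hR, mul_one]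
  have L3 : Tendsto (fun R : ℝ => ∫ z, u z * Δ (cut R) z) atTop (𝓝 (- 2 * π * minf)) := by
    rw [Metric.tendsto_atTop]
    intro ε hε
    set A := ∫ z, |Δ (cut 1) z| with hA
    have hA0 : 0 ≤ A := integral_nonneg fun z => abs_nonneg _
    -- continuity of v at 0
    have hvc : ∀ᶠ w in 𝓝 (0 : ℂ), |v w - v 0| < ε / (A + 1) := by
      have := hv.continuousAt.tendsto
      rw [Metric.tendsto_nhds] at this
      simpa [Real.dist_eq] using this (ε / (A + 1)) (by positivity)
    obtain ⟨δ, hδ, hδv⟩ := Metric.eventually_nhds_iff.1 hvc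
    refine ⟨max (2 * r⁻¹) (2 * δ⁻¹), fun R hR => ?_⟩
    have hri : 0 < r⁻¹ := inv_pos.2 hr0
    have hδi : 0 < δ⁻¹ := inv_pos.2 hδ
    have hR1 : r⁻¹ < R := by
      have : 2 * r⁻¹ ≤ R := (le_max_left _ _).trans hR
      linarith
    have hR2 : δ⁻¹ < R := by
      have : 2 * δ⁻¹ ≤ R := (le_max_right _ _).trans hR
      linarith
    have hR0 : 0 < R := hri.trans hR1
    have hcc := contDiff_cut R
    have hcs := hasCompactSupport_cut hR0
    have i0 := (hid R hR0).1
    have i1 : Integrable fun z => Real.log ‖z - 0‖ * Δ (cut R) z :=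
      integrable_log_mul_laplacian hcc hcs 0
    have i2 : Integrable (Δ (cut R)) :=
      (continuous_laplacian hcc).integrable_of_hasCompactSupport (hasCompactSupport_laplacian hcs)
    have e1 : ∫ z, Real.log ‖z - 0‖ * Δ (cut R) z = 2 * π := by
      rw [integral_log_mul_laplacian hcc hcs 0, cut_eq_one hR0 (by simpa using hR0.le), mul_one]
    have e2 : ∫ z, Δ (cut R) z = 0 := integral_laplacian_eq_zero hcc hcs
    have e3 : (∫ z, u z * Δ (cut R) z) - (- 2 * π * minf)
        = ∫ z, (u z * Δ (cut R) z + minf * (Real.log ‖z - 0‖ * Δ (cut R) z)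
            - v 0 * Δ (cut R) z) := by
      have ia : Integrable fun z => u z * Δ (cut R) z
          + minf * (Real.log ‖z - 0‖ * Δ (cut R) z) := i0.add (i1.const_mul _)
      rw [integral_sub ia (i2.const_mul _),
        integral_add i0 (i1.const_mul _), integral_const_mul, integral_const_mul, e1, e2]
      ring
    rw [Real.dist_eq, e3]
    have hpt : ∀ z, |u z * Δ (cut R) z + minf * (Real.log ‖z - 0‖ * Δ (cut R) z)
            - v 0 * Δ (cut R) z| ≤ (ε / (A + 1)) * |Δ (cut R) z| := by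
      intro z
      by_cases hz : ‖z‖ < R
      · rw [laplacian_cut_eq_zero hR0 hz]; simp
      · rw [not_lt] at hz
        have hz0 : z ≠ 0 := by
          rintro rfl
          simp at hz
          linarith
        have e4 : u z * Δ (cut R) z + minf * (Real.log ‖z - 0‖ * Δ (cut R) z)
            - v 0 * Δ (cut R) z = (v z⁻¹ - v 0) * Δ (cut R) z := by
          rw [hbig z (lt_of_lt_of_le hR1 hz), sub_zero]; ring
        rw [e4, abs_mul]
        apply mul_le_mul_of_nonneg_right _ (abs_nonneg _)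
        apply (hδv _).le
        rw [dist_zero_right, norm_inv]
        exact inv_lt_of_inv_lt₀ hδ (lt_of_lt_of_le hR2 hz)
    calc |∫ z, (u z * Δ (cut R) z + minf * (Real.log ‖z - 0‖ * Δ (cut R) z)
            - v 0 * Δ (cut R) z)|
        ≤ ∫ z, |u z * Δ (cut R) z + minf * (Real.log ‖z - 0‖ * Δ (cut R) z)
            - v 0 * Δ (cut R) z| := abs_integral_le_integral_abs
      _ ≤ ∫ z, (ε / (A + 1)) * |Δ (cut R) z| := by
          apply integral_mono
          · exact ((i0.add (i1.const_mul _)).sub (i2.const_mul _)).abs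
          · exact i2.abs.const_mul _
          · exact hpt
      _ = (ε / (A + 1)) * A := by
          rw [integral_const_mul, integral_abs_laplacian_cut hR0]
      _ < ε := by
          rw [div_mul_eq_mul_div, div_lt_iff₀ (by positivity)]
          nlinarith
  have L4 : Tendsto (fun R : ℝ => ∫ z, u z * Δ (cut R) z) atTop
      (𝓝 ((∫ z, F z) + 2 * π * ∑ z ∈ Z, m z)) := by
    refine (L1.add (L2.const_mul (2 * π))).congr' ?_
    filter_upwards [eventually_gt_atTop 0] with R hR
    exact (hid R hR).2.symm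
  have := tendsto_nhds_unique L3 L4
  linarith

end

end Vale.Agent.P267.H498
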